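import Vale.Agent.Lib.P331.Final

/-!
# P331: one sample against the almighty adversary

For every finite matroid `M` of rank `r` and every `k ≥ 1` such that all sets of at most `k`
nonloops are independent, there is an online rule using one sample per element, with a finite
uniform seed, that is `1 / (8 (⌈log₂ (⌊r / k⌋ + 1)⌉ + 4))`-competitive against the almighty
adversary.  The value `k = 1` is always allowed, which gives the ratio `Ω(1 / log r)` for every
finite matroid; `k = r - 1` gives the absolute constant `1 / 48` for every paving matroid.
-/

open scoped NNReal Classical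
open Vale.Agent.Lib.P331

namespace Vale.Agent.Results.P331.A_capacity

theorem result {E : Type} [Fintype E] (M : Matroid E) (k : ℕ) (hk : 1 ≤ k)
    (hcap : ∀ I : Finset E, I.card ≤ k → (∀ e ∈ I, M.Indep ({e} : Set E)) → M.Indep (I : Set E)) :
    ∃ rule : OnlineRule E (Fin (Nat.clog 2 (M.eRank.toNat / k + 1) + 3 + 1) × (E → Bool)),
      rule.KeepsIndep M ∧ rule.IsMeasurable ∧
      rule.Competitive M ((1 : ℝ≥0) / (8 * ((Nat.clog 2 (M.eRank.toNat / k + 1) : ℝ≥0) + 4))) :=
  main_capacity M k hk hcap

end Vale.Agent.Results.P331.A_capacity
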